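import Mathlib

/-!
# P125: Markov type, J-convexity, P-convexity
-/

namespace Vale.Agent.P125
open Finset

/-- `X` has Markov type `p` with constant `K`: for every finite stationary reversible Markov
chain (state space `S`, stationary law `π`, transition matrix `P`), every `f : S → X` and every
`t ≥ 1`, `E ‖f (Z_t) - f (Z_0)‖ ^ p ≤ K ^ p * t * E ‖f (Z_1) - f (Z_0)‖ ^ p`. -/
def MarkovTypeWith (X : Type*) [NormedAddCommGroup X] [NormedSpace ℝ X] (p K : ℝ) : Prop :=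
  ∀ (S : Type) [Fintype S] [DecidableEq S] (π : S → ℝ) (P : Matrix S S ℝ) (f : S → X) (t : ℕ),
    (∀ i, 0 ≤ π i) → ∑ i, π i = 1 → (∀ i j, 0 ≤ P i j) → (∀ i, ∑ j, P i j = 1) →
    (∀ i j, π i * P i j = π j * P j i) → 1 ≤ t →
    ∑ i, ∑ j, π i * (P ^ t) i j * ‖f j - f i‖ ^ p ≤
      K ^ p * t * ∑ i, ∑ j, π i * P i j * ‖f j - f i‖ ^ p

/-- Kottman's P-convexity: for some `n` and `δ > 0`, among any `n` vectors of the unit ball two
are at distance at most `2 - δ`. -/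
def PConvex (X : Type*) [NormedAddCommGroup X] : Prop :=
  ∃ n : ℕ, ∃ δ : ℝ, 0 < δ ∧ ∀ x : Fin n → X, (∀ i, ‖x i‖ ≤ 1) →
    ∃ i j, i ≠ j ∧ ‖x i - x j‖ ≤ 2 - δ

/-- James's J-convexity: for some `n` and `δ > 0`, for any `n` vectors of the unit ball there is
`k` with `‖x_1 + ... + x_k - x_(k+1) - ... - x_n‖ ≤ (1 - δ) n`. -/
def JConvex (X : Type*) [NormedAddCommGroup X] : Prop :=
  ∃ n : ℕ, 1 ≤ n ∧ ∃ δ : ℝ, 0 < δ ∧ ∀ x : Fin n → X, (∀ i, ‖x i‖ ≤ 1) →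
    ∃ k : ℕ, 1 ≤ k ∧ k ≤ n ∧ ‖∑ i : Fin n, (if (i : ℕ) < k then x i else - x i)‖ ≤ (1 - δ) * n

end Vale.Agent.P125
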