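import Vale.Agent.P125.Star

/-!
# P125: Markov type with a small constant implies P-convexity and J-convexity
-/

namespace Vale.Agent.P125
open Finset Filter Topology

variable {X : Type*} [NormedAddCommGroup X] [NormedSpace ℝ X]

theorem sep_ineq {p K : ℝ} (hp : 0 < p) (hK0 : 0 ≤ K) (h : MarkovTypeWith X p K) (s : ℕ)
    (x : Fin (s + 2) → X) (hx : ∀ i, ‖x i‖ ≤ 1)
    (hsep : ∀ i j, i ≠ j → 2 - 1 / (((s + 1 : ℕ) : ℝ) + 1) ≤ ‖x i - x j‖) :
    (1 - 1 / (((s + 1 : ℕ) : ℝ) + 1)) ^ 3 * (2 - 1 / (((s + 1 : ℕ) : ℝ) + 1)) ^ p ≤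
      2 * K ^ p := by
  have hu : (((s + 1 : ℕ) : ℝ) + 1) = (s : ℝ) + 2 := by
    push_cast
    ring
  rw [hu] at hsep ⊢
  set t : ℝ := (s : ℝ) + 2 with ht
  have hs0 : (0 : ℝ) ≤ (s : ℝ) := Nat.cast_nonneg s
  have ht2 : (2 : ℝ) ≤ t := by linarith
  have ht0 : (0 : ℝ) < t := by linarith
  have hinv : 1 / t ≤ 1 / 2 := one_div_le_one_div_of_le (by norm_num) ht2
  have hinv0 : 0 < 1 / t := by positivity
  set e : ℝ := (1 / t) ^ 2 with he
  have he0 : 0 < e := by positivity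
  have he1 : e ≤ 1 := by
    rw [he]
    nlinarith
  have ha : (0 : ℝ) ≤ 2 - 1 / t := by linarith
  have key := star_ineq (s := s) hp hK0 h (b := s + 2) (by omega) he0 he1 ha x hx hsep
  have hb : ((s + 2 : ℕ) : ℝ) = t := by
    push_cast
    rfl
  rw [hb] at key
  have hs1 : (s : ℝ) + 1 = t * (1 - 1 / t) := by
    field_simp
    rw [ht]
    ring
  have hber : 1 - 1 / t ≤ (1 - e) ^ s := by
    have h1 := one_add_mul_le_pow (a := -e) (by linarith) s
    have h2 : (s : ℝ) * e ≤ 1 / t := by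
      rw [he]
      have h3 : (s : ℝ) * (1 / t) ≤ 1 := by
        rw [mul_one_div, div_le_one ht0]
        linarith
      nlinarith
    have h4 : 1 + (s : ℝ) * -e = 1 - s * e := by ring
    rw [h4, ← sub_eq_add_neg] at h1
    linarith
  have hap : 0 ≤ (2 - 1 / t) ^ p := Real.rpow_nonneg ha p
  have hm : 0 ≤ 1 - 1 / t := by linarith
  have hK : 0 ≤ K ^ p := Real.rpow_nonneg hK0 p
  -- assemble
  have h5 : t ^ 2 * ((1 - 1 / t) ^ 3 * (2 - 1 / t) ^ p) ≤ t ^ 2 * (2 * K ^ p) := by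
    calc t ^ 2 * ((1 - 1 / t) ^ 3 * (2 - 1 / t) ^ p)
        = (t * (1 - 1 / t)) * (t * (1 - 1 / t)) * (1 - 1 / t) * (2 - 1 / t) ^ p := by ring
      _ ≤ (t * (1 - 1 / t)) * (t * (1 - 1 / t)) * (1 - e) ^ s * (2 - 1 / t) ^ p := by
          refine mul_le_mul_of_nonneg_right ?_ hap
          exact mul_le_mul_of_nonneg_left hber (by positivity)
      _ = (t - 1) * ((s : ℝ) + 1) * (1 - e) ^ s * (2 - 1 / t) ^ p := by
          have h6 : t * (1 - 1 / t) = t - 1 := by
            field_simp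
          have h7 : (s : ℝ) + 1 = t - 1 := by
            rw [ht]
            ring
          rw [h6, h7]
      _ ≤ K ^ p * t * (2 * t) := by
          have h8 : (s : ℝ) + 2 = t := rfl
          rw [h8] at key
          exact key
      _ = t ^ 2 * (2 * K ^ p) := by ring
  exact le_of_mul_le_mul_left h5 (by positivity)

/-- small constant implies P-convexity -/
theorem pconvex {p K : ℝ} (hp : 0 < p) (hK0 : 0 ≤ K) (hK : 2 * K ^ p < 2 ^ p)
    (h : MarkovTypeWith X p K) : PConvex X := by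
  by_contra hcon
  have hc : ∀ n : ℕ, ∀ δ : ℝ, 0 < δ → ∃ x : Fin n → X, (∀ i, ‖x i‖ ≤ 1) ∧
      ∀ i j, i ≠ j → 2 - δ < ‖x i - x j‖ := by
    intro n δ hδ
    by_contra h1
    refine hcon ⟨n, δ, hδ, fun x hx => ?_⟩
    by_contra h2
    refine h1 ⟨x, hx, fun i j hij => ?_⟩
    by_contra h3
    exact h2 ⟨i, j, hij, not_lt.1 h3⟩
  have hall : ∀ s : ℕ, (1 - 1 / (((s + 1 : ℕ) : ℝ) + 1)) ^ 3 *
      (2 - 1 / (((s + 1 : ℕ) : ℝ) + 1)) ^ p ≤ 2 * K ^ p := by
    intro s
    obtain ⟨x, hx, hsep⟩ := hc (s + 2) (1 / (((s + 1 : ℕ) : ℝ) + 1)) (by positivity)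
    exact sep_ineq hp hK0 h s x hx fun i j hij => (hsep i j hij).le
  have hu : Tendsto (fun s : ℕ => 1 / (((s + 1 : ℕ) : ℝ) + 1)) atTop (𝓝 0) :=
    (tendsto_add_atTop_iff_nat (f := fun n : ℕ => 1 / ((n : ℝ) + 1)) 1).2
      tendsto_one_div_add_atTop_nhds_zero_nat
  have hg : Continuous fun u : ℝ => (1 - u) ^ 3 * (2 - u) ^ p :=
    ((continuous_const.sub continuous_id).pow 3).mul
      ((continuous_const.sub continuous_id).rpow_const fun _ => Or.inr hp.le)
  have hlim := (hg.tendsto 0).comp hu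
  have h1 := le_of_tendsto' hlim hall
  rw [sub_zero, sub_zero, one_pow, one_mul] at h1
  exact absurd h1 (not_le.2 hK)

/-- P-convexity implies J-convexity -/
theorem jconvex (h : PConvex X) : JConvex X := by
  obtain ⟨n, δ, hδ, hP⟩ := h
  have hn : 1 ≤ n := by
    obtain ⟨i, -, -, -⟩ := hP (fun _ => 0) fun _ => by rw [norm_zero]; exact zero_le_one
    exact lt_of_le_of_lt (Nat.zero_le _) i.2
  have hn0 : (0 : ℝ) < n := by exact_mod_cast hn
  refine ⟨n, hn, δ / n, by positivity, fun x hx => ?_⟩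
  by_contra hcon
  have hbig : ∀ k : ℕ, 1 ≤ k → k ≤ n →
      (1 - δ / n) * n < ‖∑ i : Fin n, (if (i : ℕ) < k then x i else - x i)‖ := by
    intro k h1 h2
    by_contra h3
    exact hcon ⟨k, h1, h2, not_lt.1 h3⟩
  have hlt : ∀ i j : Fin n, i < j → 2 - δ < ‖x i - x j‖ := by
    intro i j hij
    have h1 := hbig ((i : ℕ) + 1) (by omega) i.2
    set g : Fin n → X := fun l => if (l : ℕ) < (i : ℕ) + 1 then x l else - x l with hg
    have hgi : g i = x i := by
      rw [hg]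
      exact if_pos (Nat.lt_succ_self _)
    have hgj : g j = - x j := by
      rw [hg]
      refine if_neg ?_
      have h2 : (i : ℕ) < (j : ℕ) := hij
      show ¬ ((j : ℕ) < (i : ℕ) + 1)
      omega
    have hgn : ∀ l, ‖g l‖ ≤ 1 := by
      intro l
      show ‖if (l : ℕ) < (i : ℕ) + 1 then x l else - x l‖ ≤ 1
      split_ifs
      · exact hx l
      · rw [norm_neg]
        exact hx l
    have hji : j ∈ univ.erase i := mem_erase.2 ⟨hij.ne', mem_univ j⟩
    have h3 : ∑ l, g l = (x i - x j) + ∑ l ∈ (univ.erase i).erase j, g l := by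
      rw [← add_sum_erase univ g (mem_univ i), ← add_sum_erase (univ.erase i) g hji, hgi, hgj]
      abel
    have hcard : ((univ.erase i).erase j).card = n - 1 - 1 := by
      rw [card_erase_of_mem hji, card_erase_of_mem (mem_univ i), card_univ, Fintype.card_fin]
    have hn2 : 2 ≤ n := by
      have h2 : (i : ℕ) < (j : ℕ) := hij
      have h4 := j.2
      omega
    have h5 : ‖∑ l ∈ (univ.erase i).erase j, g l‖ ≤ (n : ℝ) - 2 := by
      refine (norm_sum_le_of_le _ fun l _ => hgn l).trans (le_of_eq ?_)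
      rw [sum_const, hcard, nsmul_eq_mul, mul_one]
      have h6 : n - 1 - 1 = n - 2 := by omega
      rw [h6, Nat.cast_sub hn2]
      norm_num
    have h7 : ‖∑ l, g l‖ ≤ ‖x i - x j‖ + ((n : ℝ) - 2) := by
      rw [h3]
      exact (norm_add_le _ _).trans (add_le_add le_rfl h5)
    have h8 : (1 - δ / n) * n = n - δ := by
      field_simp
    rw [h8] at h1
    have h9 : (n : ℝ) - δ < ‖∑ l, g l‖ := h1
    linarith
  obtain ⟨i, j, hij, h1⟩ := hP x hx
  rcases lt_or_gt_of_ne hij with h2 | h2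
  · exact absurd h1 (not_le.2 (hlt i j h2))
  · have h3 := hlt j i h2
    rw [norm_sub_rev] at h3
    exact absurd h1 (not_le.2 h3)

theorem main {p K : ℝ} (hp : 0 < p) (hK0 : 0 ≤ K) (hK : K < 2 ^ (1 - 1 / p))
    (h : MarkovTypeWith X p K) : PConvex X ∧ JConvex X := by
  have h1 : 2 * K ^ p < 2 ^ p := by
    have h2 : K ^ p < (2 ^ (1 - 1 / p)) ^ p := Real.rpow_lt_rpow hK0 hK hp
    have h3 : ((2 : ℝ) ^ (1 - 1 / p)) ^ p = 2 ^ (p - 1) := by
      rw [← Real.rpow_mul (by norm_num)]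
      congr 1
      field_simp
    have h4 : (2 : ℝ) ^ p = 2 * 2 ^ (p - 1) := by
      have h5 : (2 : ℝ) ^ p = 2 ^ (1 + (p - 1)) := by
        congr 1
        ring
      rw [h5, Real.rpow_add (by norm_num), Real.rpow_one]
    rw [h4]
    rw [h3] at h2
    linarith
  have hP := pconvex hp hK0 h1 h
  exact ⟨hP, jconvex hP⟩

end Vale.Agent.P125
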