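import Vale.Agent.P125.Defs

/-!
# P125: the lazy star
-/

namespace Vale.Agent.P125
open Finset

section chain
variable {b : ℕ} (e : ℝ)

/-- transition matrix of the lazy star with `b` leaves; `none` is the centre -/
noncomputable def Pm (b : ℕ) (e : ℝ) : Matrix (Option (Fin b)) (Option (Fin b)) ℝ
  | none, none => 0
  | none, some _ => 1 / b
  | some _, none => e
  | some i, some j => if i = j then 1 - e else 0

/-- stationary law -/
noncomputable def pi0 (b : ℕ) (e : ℝ) : Option (Fin b) → ℝ
  | none => e / (1 + e)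
  | some _ => 1 / (b * (1 + e))

theorem Pm_nonneg (h0 : 0 ≤ e) (h1 : e ≤ 1) (i j : Option (Fin b)) : 0 ≤ Pm b e i j := by
  rcases i with _ | i <;> rcases j with _ | j
  · exact le_rfl
  · show (0 : ℝ) ≤ 1 / b
    positivity
  · exact h0
  · show (0 : ℝ) ≤ if i = j then 1 - e else 0
    split_ifs
    · linarith
    · exact le_rfl

theorem Pm_sum (hb : 0 < b) (i : Option (Fin b)) : ∑ j, Pm b e i j = 1 := by
  have hb' : (b : ℝ) ≠ 0 := by exact_mod_cast hb.ne'
  rw [Fintype.sum_option]
  rcases i with _ | i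
  · show (0 : ℝ) + ∑ _j : Fin b, (1 / (b : ℝ)) = 1
    rw [sum_const, card_univ, Fintype.card_fin, nsmul_eq_mul, zero_add]
    field_simp
  · show e + ∑ j : Fin b, (if i = j then 1 - e else 0) = 1
    rw [sum_ite_eq, if_pos (mem_univ i)]
    ring

theorem pi0_nonneg (h0 : 0 ≤ e) (i : Option (Fin b)) : 0 ≤ pi0 b e i := by
  rcases i with _ | i
  · show 0 ≤ e / (1 + e)
    positivity
  · show 0 ≤ 1 / (b * (1 + e))
    positivity

theorem pi0_sum (hb : 0 < b) (h0 : 0 ≤ e) : ∑ i, pi0 b e i = 1 := by
  have hb' : (b : ℝ) ≠ 0 := by exact_mod_cast hb.ne'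
  have he : (1 + e) ≠ 0 := by positivity
  rw [Fintype.sum_option]
  show e / (1 + e) + ∑ _i : Fin b, (1 / ((b : ℝ) * (1 + e))) = 1
  rw [sum_const, card_univ, Fintype.card_fin, nsmul_eq_mul]
  field_simp
  ring

theorem rev (hb : 0 < b) (h0 : 0 ≤ e) (i j : Option (Fin b)) :
    pi0 b e i * Pm b e i j = pi0 b e j * Pm b e j i := by
  have hb' : (b : ℝ) ≠ 0 := by exact_mod_cast hb.ne'
  have he : (1 + e) ≠ 0 := by positivity
  rcases i with _ | i <;> rcases j with _ | j
  · rfl
  · show e / (1 + e) * (1 / b) = 1 / (b * (1 + e)) * e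
    field_simp
  · show 1 / (b * (1 + e)) * e = e / (1 + e) * (1 / b)
    field_simp
  · show 1 / ((b : ℝ) * (1 + e)) * (if i = j then 1 - e else 0) =
      1 / ((b : ℝ) * (1 + e)) * (if j = i then 1 - e else 0)
    by_cases h : i = j
    · rw [if_pos h, if_pos h.symm]
    · rw [if_neg h, if_neg (Ne.symm h)]

theorem pow_nonneg' (h0 : 0 ≤ e) (h1 : e ≤ 1) (t : ℕ) (i j : Option (Fin b)) :
    0 ≤ (Pm b e ^ t) i j := by
  induction t generalizing i j with
  | zero =>
    rw [pow_zero, Matrix.one_apply]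
    split_ifs <;> norm_num
  | succ t ih =>
    rw [pow_succ', Matrix.mul_apply]
    exact sum_nonneg fun k _ => mul_nonneg (Pm_nonneg e h0 h1 _ _) (ih _ _)

theorem pow_step (t : ℕ) (i j : Option (Fin b)) :
    ∑ k, Pm b e i k * (Pm b e ^ t) k j = (Pm b e ^ (t + 1)) i j := by
  rw [pow_succ', Matrix.mul_apply]

/-- one path -/
theorem pow_succ_ge (h0 : 0 ≤ e) (h1 : e ≤ 1) (t : ℕ) (i j k : Option (Fin b)) :
    Pm b e i k * (Pm b e ^ t) k j ≤ (Pm b e ^ (t + 1)) i j := by
  rw [pow_succ', Matrix.mul_apply]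
  exact single_le_sum (f := fun k => Pm b e i k * (Pm b e ^ t) k j)
    (fun k _ => mul_nonneg (Pm_nonneg e h0 h1 _ _) (pow_nonneg' e h0 h1 _ _ _)) (mem_univ k)

theorem pow_diag (h0 : 0 ≤ e) (h1 : e ≤ 1) (t : ℕ) (j : Fin b) :
    (1 - e) ^ t ≤ (Pm b e ^ t) (some j) (some j) := by
  induction t with
  | zero => rw [pow_zero, pow_zero, Matrix.one_apply_eq]
  | succ t ih =>
    refine le_trans ?_ (pow_succ_ge e h0 h1 t (some j) (some j) (some j))
    have h2 : Pm b e (some j) (some j) = 1 - e := by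
      show (if j = j then 1 - e else 0) = 1 - e
      rw [if_pos rfl]
    rw [h2, pow_succ']
    exact mul_le_mul_of_nonneg_left ih (by linarith)

theorem pow_centre (h0 : 0 ≤ e) (h1 : e ≤ 1) (t : ℕ) (j : Fin b) :
    (1 / b) * (1 - e) ^ t ≤ (Pm b e ^ (t + 1)) none (some j) := by
  refine le_trans ?_ (pow_succ_ge e h0 h1 t none (some j) (some j))
  exact mul_le_mul_of_nonneg_left (pow_diag e h0 h1 t j) (by positivity)

theorem pow_leaf (h0 : 0 ≤ e) (h1 : e ≤ 1) (s : ℕ) {i j : Fin b} (hij : i ≠ j) :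
    ((s : ℝ) + 1) * (1 - e) ^ s * (e / b) ≤ (Pm b e ^ (s + 2)) (some i) (some j) := by
  induction s with
  | zero =>
    have h2 := pow_succ_ge e h0 h1 1 (some i) (some j) none
    have h3 := pow_centre e h0 h1 0 j
    rw [pow_zero, mul_one] at h3
    refine le_trans ?_ h2
    rw [pow_zero]
    have h4 : e * (1 / (b : ℝ)) ≤ Pm b e (some i) none * (Pm b e ^ 1) none (some j) :=
      mul_le_mul_of_nonneg_left h3 h0
    refine le_trans (le_of_eq ?_) h4
    push_cast
    ring
  | succ s ih =>
    have h2 : ∑ k, Pm b e (some i) k * (Pm b e ^ (s + 2)) k (some j) =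
        (Pm b e ^ (s + 1 + 2)) (some i) (some j) := pow_step e (s + 2) (some i) (some j)
    rw [← h2, Fintype.sum_option]
    have h3 : (1 - e) * (Pm b e ^ (s + 2)) (some i) (some j) ≤
        ∑ k : Fin b, Pm b e (some i) (some k) * (Pm b e ^ (s + 2)) (some k) (some j) := by
      have h5 : Pm b e (some i) (some i) = 1 - e := by
        show (if i = i then 1 - e else 0) = 1 - e
        rw [if_pos rfl]
      rw [← h5]
      exact single_le_sum (f := fun k : Fin b =>
        Pm b e (some i) (some k) * (Pm b e ^ (s + 2)) (some k) (some j))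
        (fun k _ => mul_nonneg (Pm_nonneg e h0 h1 _ _) (pow_nonneg' e h0 h1 _ _ _)) (mem_univ i)
    have h4 : e * ((1 / b) * (1 - e) ^ (s + 1)) ≤
        Pm b e (some i) none * (Pm b e ^ (s + 2)) none (some j) :=
      mul_le_mul_of_nonneg_left (pow_centre e h0 h1 (s + 1) j) h0
    have h6 := mul_le_mul_of_nonneg_left ih (by linarith : (0 : ℝ) ≤ 1 - e)
    calc (((s + 1 : ℕ) : ℝ) + 1) * (1 - e) ^ (s + 1) * (e / b) =
        e * ((1 / b) * (1 - e) ^ (s + 1)) +
          (1 - e) * (((s : ℝ) + 1) * (1 - e) ^ s * (e / b)) := by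
          push_cast
          ring
      _ ≤ _ := add_le_add h4 (h6.trans h3)

end chain

variable {X : Type*} [NormedAddCommGroup X] [NormedSpace ℝ X]

/-- the inequality for a separated family -/
theorem star_ineq {p K : ℝ} (hp : 0 < p) (hK0 : 0 ≤ K) (h : MarkovTypeWith X p K) {b s : ℕ} (hb : 0 < b)
    {e : ℝ} (h0 : 0 < e) (h1 : e ≤ 1) {a : ℝ} (ha : 0 ≤ a) (x : Fin b → X)
    (hx : ∀ i, ‖x i‖ ≤ 1) (hsep : ∀ i j, i ≠ j → a ≤ ‖x i - x j‖) :
    ((b : ℝ) - 1) * ((s : ℝ) + 1) * (1 - e) ^ s * a ^ p ≤ K ^ p * ((s : ℝ) + 2) * (2 * b) := by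
  have hb' : (0 : ℝ) < (b : ℝ) := by exact_mod_cast hb
  have he : (0 : ℝ) < 1 + e := by linarith
  set f : Option (Fin b) → X := fun o => o.elim 0 x with hf
  have key := h (Option (Fin b)) (pi0 b e) (Pm b e) f (s + 2) (pi0_nonneg e h0.le)
    (pi0_sum e hb h0.le) (Pm_nonneg e h0.le h1) (Pm_sum e hb) (rev e hb h0.le) (by omega)
  set w : ℝ := 1 / (b * (1 + e)) with hw
  have hw0 : 0 < w := by positivity
  -- right side
  have hR : ∑ i, ∑ j, pi0 b e i * Pm b e i j * ‖f j - f i‖ ^ p ≤ 2 * (w * e * b) := by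
    rw [Fintype.sum_option]
    have hA : ∑ j, pi0 b e none * Pm b e none j * ‖f j - f none‖ ^ p ≤ w * e * b := by
      rw [Fintype.sum_option]
      have hz : pi0 b e none * Pm b e none none * ‖f none - f none‖ ^ p = 0 := by
        have : Pm b e none none = 0 := rfl
        rw [this, mul_zero, zero_mul]
      rw [hz, zero_add]
      calc ∑ j : Fin b, pi0 b e none * Pm b e none (some j) * ‖f (some j) - f none‖ ^ p
          ≤ ∑ _j : Fin b, w * e := by
            refine sum_le_sum fun j _ => ?_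
            have h2 : pi0 b e none * Pm b e none (some j) = w * e := rev e hb h0.le none (some j)
            rw [h2]
            have h3 : ‖f (some j) - f none‖ ^ p ≤ 1 := by
              refine Real.rpow_le_one (norm_nonneg _) ?_ hp.le
              show ‖x j - 0‖ ≤ 1
              rw [sub_zero]
              exact hx j
            have h4 : 0 ≤ w * e := by positivity
            nlinarith
        _ = w * e * b := by
            rw [sum_const, card_univ, Fintype.card_fin, nsmul_eq_mul]
            ring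
    have hB : ∑ i : Fin b, ∑ j, pi0 b e (some i) * Pm b e (some i) j * ‖f j - f (some i)‖ ^ p ≤
        w * e * b := by
      calc ∑ i : Fin b, ∑ j, pi0 b e (some i) * Pm b e (some i) j * ‖f j - f (some i)‖ ^ p
          ≤ ∑ _i : Fin b, w * e := by
            refine sum_le_sum fun i _ => ?_
            rw [Fintype.sum_option]
            have h5 : ∑ j : Fin b, pi0 b e (some i) * Pm b e (some i) (some j) *
                ‖f (some j) - f (some i)‖ ^ p = 0 := by
              refine sum_eq_zero fun j _ => ?_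
              by_cases hij : i = j
              · rw [hij, sub_self, norm_zero, Real.zero_rpow hp.ne', mul_zero]
              · have : Pm b e (some i) (some j) = 0 := by
                  show (if i = j then 1 - e else 0) = 0
                  rw [if_neg hij]
                rw [this, mul_zero, zero_mul]
            rw [h5, add_zero]
            have h2 : pi0 b e (some i) * Pm b e (some i) none = w * e := rfl
            rw [h2]
            have h3 : ‖f none - f (some i)‖ ^ p ≤ 1 := by
              refine Real.rpow_le_one (norm_nonneg _) ?_ hp.le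
              show ‖0 - x i‖ ≤ 1
              rw [zero_sub, norm_neg]
              exact hx i
            have h4 : 0 ≤ w * e := by positivity
            nlinarith
        _ = w * e * b := by
            rw [sum_const, card_univ, Fintype.card_fin, nsmul_eq_mul]
            ring
    linarith
  -- left side
  have hL : w * (((b : ℝ) - 1) * (((s : ℝ) + 1) * (1 - e) ^ s * e) * a ^ p) ≤
      ∑ i, ∑ j, pi0 b e i * (Pm b e ^ (s + 2)) i j * ‖f j - f i‖ ^ p := by
    rw [Fintype.sum_option]
    have hA : 0 ≤ ∑ j, pi0 b e none * (Pm b e ^ (s + 2)) none j * ‖f j - f none‖ ^ p :=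
      sum_nonneg fun j _ => mul_nonneg (mul_nonneg (pi0_nonneg e h0.le _)
        (pow_nonneg' e h0.le h1 _ _ _)) (Real.rpow_nonneg (norm_nonneg _) _)
    have hB : ∀ i : Fin b, w * (((b : ℝ) - 1) / b * (((s : ℝ) + 1) * (1 - e) ^ s * e) * a ^ p) ≤
        ∑ j, pi0 b e (some i) * (Pm b e ^ (s + 2)) (some i) j * ‖f j - f (some i)‖ ^ p := by
      intro i
      rw [Fintype.sum_option]
      have h2 : 0 ≤ pi0 b e (some i) * (Pm b e ^ (s + 2)) (some i) none *
          ‖f none - f (some i)‖ ^ p :=
        mul_nonneg (mul_nonneg (pi0_nonneg e h0.le _) (pow_nonneg' e h0.le h1 _ _ _))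
          (Real.rpow_nonneg (norm_nonneg _) _)
      have h3 : ∑ j : Fin b, (if j = i then 0 else
          w * (((s : ℝ) + 1) * (1 - e) ^ s * (e / b)) * a ^ p) ≤
          ∑ j : Fin b, pi0 b e (some i) * (Pm b e ^ (s + 2)) (some i) (some j) *
            ‖f (some j) - f (some i)‖ ^ p := by
        refine sum_le_sum fun j _ => ?_
        split_ifs with hij
        · exact mul_nonneg (mul_nonneg (pi0_nonneg e h0.le _) (pow_nonneg' e h0.le h1 _ _ _))
            (Real.rpow_nonneg (norm_nonneg _) _)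
        · have h4 := pow_leaf e h0.le h1 s (Ne.symm hij : i ≠ j)
          have h5 : a ^ p ≤ ‖f (some j) - f (some i)‖ ^ p :=
            Real.rpow_le_rpow ha (hsep j i hij) hp.le
          have h6 : pi0 b e (some i) = w := rfl
          rw [h6]
          have h7 : 0 ≤ (Pm b e ^ (s + 2)) (some i) (some j) := pow_nonneg' e h0.le h1 _ _ _
          exact mul_le_mul (mul_le_mul_of_nonneg_left h4 hw0.le) h5 (Real.rpow_nonneg ha _)
            (mul_nonneg hw0.le h7)
      have h8 : ∑ j : Fin b, (if j = i then 0 else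
          w * (((s : ℝ) + 1) * (1 - e) ^ s * (e / b)) * a ^ p) =
          w * (((b : ℝ) - 1) / b * (((s : ℝ) + 1) * (1 - e) ^ s * e) * a ^ p) := by
        have h9 : ∀ j : Fin b, (if j = i then 0 else
            w * (((s : ℝ) + 1) * (1 - e) ^ s * (e / b)) * a ^ p) =
            w * (((s : ℝ) + 1) * (1 - e) ^ s * (e / b)) * a ^ p -
            (if j = i then w * (((s : ℝ) + 1) * (1 - e) ^ s * (e / b)) * a ^ p else 0) := by
          intro j
          split_ifs <;> ring
        rw [sum_congr rfl fun j _ => h9 j, sum_sub_distrib, sum_const, card_univ,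
          Fintype.card_fin, nsmul_eq_mul, sum_ite_eq', if_pos (mem_univ i)]
        field_simp
      rw [h8] at h3
      linarith
    have hC : ∑ _i : Fin b, w * (((b : ℝ) - 1) / b * (((s : ℝ) + 1) * (1 - e) ^ s * e) * a ^ p) =
        w * (((b : ℝ) - 1) * (((s : ℝ) + 1) * (1 - e) ^ s * e) * a ^ p) := by
      rw [sum_const, card_univ, Fintype.card_fin, nsmul_eq_mul]
      field_simp
    have hD := sum_le_sum fun (i : Fin b) (_ : i ∈ (univ : Finset (Fin b))) => hB i
    rw [hC] at hD
    linarith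
  have hK : 0 ≤ K ^ p := Real.rpow_nonneg hK0 p
  have hwe : 0 < w * e := by positivity
  have h10 : w * (((b : ℝ) - 1) * (((s : ℝ) + 1) * (1 - e) ^ s * e) * a ^ p) ≤
      K ^ p * ((s : ℝ) + 2) * (2 * (w * e * b)) := by
    refine hL.trans (key.trans ?_)
    push_cast
    exact mul_le_mul_of_nonneg_left hR (by positivity)
  have h11 : (w * e) * (((b : ℝ) - 1) * ((s : ℝ) + 1) * (1 - e) ^ s * a ^ p) ≤
      (w * e) * (K ^ p * ((s : ℝ) + 2) * (2 * b)) := by
    refine le_trans (le_of_eq ?_) (h10.trans (le_of_eq ?_)) <;> ring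
  exact le_of_mul_le_mul_left h11 hwe

end Vale.Agent.P125
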